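import Vale.Agent.P048.Final
import Vale.Agent.P048.PSLAll
import Vale.Agent.P048.ZLemma

/-!
# P048: `R(C_m, K_n) = (m - 1)(n - 1) + 1` for all `3 ≤ n ≤ 8` and all `m ≥ 2 n`
-/

namespace Vale.Agent.Results.P048.A0_AllNle8

open Vale.Agent.P048

/-- For `3 ≤ n ≤ 8` and `m ≥ 2 n` the least `N` such that every graph on `N` vertices contains a
cycle of length exactly `m` or an independent set of `n` vertices is `(m - 1)(n - 1) + 1`. -/
theorem result (m n : ℕ) (hn3 : 3 ≤ n) (hn8 : n ≤ 8) (hm : 2 * n ≤ m) :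
    IsLeast {N : ℕ | ∀ G : SimpleGraph (Fin N),
        (∃ (v : Fin N) (w : G.Walk v v), w.IsCycle ∧ w.length = m) ∨
          ∃ s : Finset (Fin N), G.IsNIndepSet n s}
      ((m - 1) * (n - 1) + 1) :=
  isRamsey_of_certs 7 psl_all dshort_all m n (by omega) (by omega) hm

end Vale.Agent.Results.P048.A0_AllNle8
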