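import Vale.Agent.P048.Shorten
import Vale.Agent.P048.MinDeg
import Vale.Agent.P048.Induct

/-!
# P048: an approximate form of the cycle-complete identity, valid for all `m ≥ 3`, `n ≥ 2`
-/

namespace Vale.Agent.Results.P048.B_Window

open SimpleGraph Vale.Agent.P048

/-- Every graph on at least `(m-1)(n-1)+1` vertices without an independent `n`-set contains a cycle
whose length lies in the window `[m, m+2n-4]`, and it contains `C_m` or a cycle of length at least
`2m-2`. -/
theorem result (m n : ℕ) (hm : 3 ≤ m) (hn : 2 ≤ n) (V : Type) [Fintype V] (G : SimpleGraph V)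
    (hN : (m - 1) * (n - 1) + 1 ≤ Fintype.card V) (hα : ¬ HasIndep G n) :
    (∃ k, m ≤ k ∧ k ≤ m + 2 * n - 4 ∧ HasCycle G k) ∧
      (HasCycle G m ∨ ∃ k, 2 * m - 2 ≤ k ∧ HasCycle G k) := by
  have key : HasCycle G m ∨ ∃ k, 2 * m - 2 ≤ k ∧ HasCycle G k := by
    have h := ramsey_induct m (by omega)
      (fun V G => HasCycle G m ∨ ∃ k, 2 * m - 2 ≤ k ∧ HasCycle G k)
      (by
        intro V G s h
        rcases h with h | ⟨k, hk, h⟩
        · exact Or.inl (hasCycle_of_induce s h)
        · exact Or.inr ⟨k, hk, hasCycle_of_induce s h⟩)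
      (by
        intro V _ _ G hδ
        exact long_or_exact hm hδ)
      n (by omega) V G hN
    rcases h with h | h
    · exact absurd h hα
    · exact h
  refine ⟨?_, key⟩
  -- a cycle of length at least `m` exists; take the shortest one
  have hex : ∃ k, m ≤ k ∧ HasCycle G k := by
    rcases key with h | ⟨k, hk, h⟩
    · exact ⟨m, le_refl m, h⟩
    · exact ⟨k, by omega, h⟩
  classical
  let z := Nat.find hex
  have hz : m ≤ z ∧ HasCycle G z := Nat.find_spec hex
  have hmin : ∀ k, k < z → ¬ (m ≤ k ∧ HasCycle G k) := fun k hk => Nat.find_min hex hk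
  refine ⟨z, hz.1, ?_, hz.2⟩
  by_contra hbig
  obtain ⟨a, rfl⟩ : ∃ a, n = a + 1 := ⟨n - 1, by omega⟩
  obtain ⟨z', h1, h2, h3⟩ := shorten (a := a) (z := z) hα (by omega) hz.2
  exact hmin z' h2 ⟨by omega, h3⟩

end Vale.Agent.Results.P048.B_Window
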